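import Mathlib

/-!
# P049: translation invariant graphs on finite abelian groups are not Ramanujan

For `d ≥ 3`, a `d`-regular simple graph on more than `19 ^ d` vertices which is invariant under a
simply transitive action of a finite abelian group has an eigenvalue on the orthogonal complement
of the constants which exceeds `2 * sqrt (d - 1)`.
-/

namespace Vale.Agent.P049

open Finset

/-- `G` is a `d`-regular Ramanujan graph: it is `d`-regular and every eigenvalue of its adjacency
matrix which has an eigenvector orthogonal to the all-ones vector (a nonconstant eigenvalue)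
has absolute value at most `2 * sqrt (d - 1)`. -/
def IsRamanujan {V : Type*} [Fintype V] [DecidableEq V] (G : SimpleGraph V) [DecidableRel G.Adj]
    (d : ℕ) : Prop :=
  G.IsRegularOfDegree d ∧
    ∀ (μ : ℝ) (f : V → ℝ), f ≠ 0 → ∑ v, f v = 0 → (G.adjMatrix ℝ).mulVec f = μ • f →
      |μ| ≤ 2 * Real.sqrt ((d : ℝ) - 1)

/-- The arc index (between `1` and `19`) of a complex number. -/
noncomputable def arcIdx (z : ℂ) : ℕ := ⌈19 * ((Complex.arg z + Real.pi) / (2 * Real.pi))⌉₊

lemma arcIdx_mem (z : ℂ) : arcIdx z ∈ Finset.Icc 1 19 := by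
  have hpi := Real.pi_pos
  have h1 := Complex.neg_pi_lt_arg z
  have h2 := Complex.arg_le_pi z
  have hpos : 0 < 19 * ((Complex.arg z + Real.pi) / (2 * Real.pi)) := by
    apply mul_pos (by norm_num)
    apply div_pos <;> linarith
  have hle : 19 * ((Complex.arg z + Real.pi) / (2 * Real.pi)) ≤ (19 : ℕ) := by
    have : (Complex.arg z + Real.pi) / (2 * Real.pi) ≤ 1 := by
      rw [div_le_one (by linarith)]; linarith
    push_cast; linarith
  rw [Finset.mem_Icc]
  exact ⟨Nat.ceil_pos.mpr hpos, Nat.ceil_le.mpr hle⟩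

lemma abs_arg_sub_lt {z w : ℂ} (h : arcIdx z = arcIdx w) :
    |Complex.arg z - Complex.arg w| < 2 * Real.pi / 19 := by
  have hpi := Real.pi_pos
  have hz1 := Complex.neg_pi_lt_arg z
  have hw1 := Complex.neg_pi_lt_arg w
  set a := 19 * ((Complex.arg z + Real.pi) / (2 * Real.pi)) with ha
  set b := 19 * ((Complex.arg w + Real.pi) / (2 * Real.pi)) with hb
  have ha0 : 0 ≤ a := by
    apply mul_nonneg (by norm_num); apply div_nonneg <;> linarith
  have hb0 : 0 ≤ b := by
    apply mul_nonneg (by norm_num); apply div_nonneg <;> linarith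
  have h1 : a ≤ (⌈a⌉₊ : ℝ) := Nat.le_ceil a
  have h2 : (⌈a⌉₊ : ℝ) < a + 1 := Nat.ceil_lt_add_one ha0
  have h3 : b ≤ (⌈b⌉₊ : ℝ) := Nat.le_ceil b
  have h4 : (⌈b⌉₊ : ℝ) < b + 1 := Nat.ceil_lt_add_one hb0
  have heq : (⌈a⌉₊ : ℝ) = (⌈b⌉₊ : ℝ) := by
    have : ⌈a⌉₊ = ⌈b⌉₊ := h
    rw [this]
  have hab : |a - b| < 1 := by
    rw [abs_lt]; constructor <;> linarith
  have hdiff : a - b = (Complex.arg z - Complex.arg w) * (19 / (2 * Real.pi)) := by
    rw [ha, hb]; field_simp; ring
  rw [hdiff, abs_mul, abs_of_pos (by positivity : (0:ℝ) < 19 / (2 * Real.pi))] at hab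
  rw [lt_div_iff₀ (by norm_num : (0:ℝ) < 19)]
  have := mul_lt_mul_of_pos_right hab (by positivity : (0:ℝ) < 2 * Real.pi)
  have h5 : |Complex.arg z - Complex.arg w| * (19 / (2 * Real.pi)) * (2 * Real.pi)
      = |Complex.arg z - Complex.arg w| * 19 := by field_simp
  linarith

/-- Two unit complex numbers in the same arc have `Re (z * conj w)` close to `1`. -/
lemma re_mul_conj_gt {z w : ℂ} (hz : ‖z‖ = 1) (hw : ‖w‖ = 1) (h : arcIdx z = arcIdx w) :
    (0.9453 : ℝ) < z.re * w.re + z.im * w.im := by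
  have hz0 : z ≠ 0 := by intro h0; simp [h0] at hz
  have hw0 : w ≠ 0 := by intro h0; simp [h0] at hw
  have e1 : z.re = Real.cos (Complex.arg z) := by rw [Complex.cos_arg hz0, hz, div_one]
  have e2 : z.im = Real.sin (Complex.arg z) := by rw [Complex.sin_arg, hz, div_one]
  have e3 : w.re = Real.cos (Complex.arg w) := by rw [Complex.cos_arg hw0, hw, div_one]
  have e4 : w.im = Real.sin (Complex.arg w) := by rw [Complex.sin_arg, hw, div_one]
  rw [e1, e2, e3, e4, ← Real.cos_sub]
  have hlt := abs_arg_sub_lt h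
  have hcos := @Real.one_sub_sq_div_two_le_cos (Complex.arg z - Complex.arg w)
  have hpi := Real.pi_lt_d4
  have hpi0 := Real.pi_pos
  have hb : |Complex.arg z - Complex.arg w| < 0.33070 := by
    refine lt_trans hlt ?_
    rw [div_lt_iff₀ (by norm_num)]
    linarith
  have hsq : (Complex.arg z - Complex.arg w) ^ 2 < 0.33070 ^ 2 := by
    rw [← sq_abs]
    exact pow_lt_pow_left₀ hb (abs_nonneg _) (by norm_num)
  norm_num at hsq ⊢
  linarith

/-- The numerical inequality `2 * sqrt (d - 1) < 0.9453 * d` for `d ≥ 3`. -/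
lemma two_sqrt_lt (d : ℕ) (hd : 3 ≤ d) : 2 * Real.sqrt ((d : ℝ) - 1) < 0.9453 * d := by
  have hd' : (3 : ℝ) ≤ d := by exact_mod_cast hd
  have h0 : (0:ℝ) ≤ (d:ℝ) - 1 := by linarith
  have h1 : Real.sqrt ((d : ℝ) - 1) < 0.9453 * d / 2 := by
    rw [Real.sqrt_lt' (by positivity)]
    nlinarith
  linarith

theorem exists_large_eigenvalue {A V : Type*} [AddCommGroup A] [Fintype A] [Fintype V]
    [DecidableEq V] (G : SimpleGraph V) [DecidableRel G.Adj] (d : ℕ) (hd : 3 ≤ d)
    (hreg : G.IsRegularOfDegree d) (e : A ≃ V)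
    (hinv : ∀ a b c : A, G.Adj (e (a + c)) (e (b + c)) ↔ G.Adj (e a) (e b))
    (hcard : 19 ^ d < Fintype.card V) :
    ∃ (μ : ℝ) (f : V → ℝ), f ≠ 0 ∧ ∑ v, f v = 0 ∧ (G.adjMatrix ℝ).mulVec f = μ • f ∧
      2 * Real.sqrt ((d : ℝ) - 1) < μ := by
  classical
  -- the connection set
  set S : Finset A := Finset.univ.filter (fun s => G.Adj (e 0) (e s)) with hS
  have hScard : S.card = d := by
    have h1 : S.map e.toEmbedding = G.neighborFinset (e 0) := by
      ext v
      simp only [hS, Finset.mem_map, Finset.mem_filter, Finset.mem_univ, true_and,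
        Equiv.coe_toEmbedding, SimpleGraph.mem_neighborFinset]
      constructor
      · rintro ⟨s, hs, rfl⟩; exact hs
      · intro hv; exact ⟨e.symm v, by simpa using hv, by simp⟩
    have h2 := congrArg Finset.card h1
    rw [Finset.card_map, SimpleGraph.card_neighborFinset_eq_degree, hreg.degree_eq] at h2
    exact h2
  have hSneg : ∀ s, s ∈ S → -s ∈ S := by
    intro s hs
    simp only [hS, Finset.mem_filter, Finset.mem_univ, true_and] at hs ⊢
    have h3 : G.Adj (e (0 + -s)) (e (s + -s)) := (hinv 0 s (-s)).mpr hs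
    simp only [zero_add, add_neg_cancel] at h3
    exact h3.symm
  have hnbr : ∀ x : A, G.neighborFinset (e x) = S.map ((addLeftEmbedding x).trans e.toEmbedding) := by
    intro x
    ext v
    simp only [hS, Finset.mem_map, Finset.mem_filter, Finset.mem_univ, true_and,
      SimpleGraph.mem_neighborFinset, Function.Embedding.trans_apply, addLeftEmbedding_apply,
      Equiv.coe_toEmbedding]
    constructor
    · intro hv
      refine ⟨e.symm v - x, ?_, by simp⟩
      have := (hinv 0 (e.symm v - x) x).mp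
      apply this
      simpa using hv
    · rintro ⟨s, hs, rfl⟩
      have := (hinv 0 s x).mpr hs
      simpa [add_comm] using this
  -- pigeonhole on characters
  have hcardA : Fintype.card (AddChar A ℂ) = Fintype.card V := by
    rw [AddChar.card_eq, Fintype.card_congr e]
  obtain ⟨ψ₁, -, ψ₂, -, hne, hbox⟩ :
      ∃ x ∈ (Finset.univ : Finset (AddChar A ℂ)), ∃ y ∈ (Finset.univ : Finset (AddChar A ℂ)),
        x ≠ y ∧ (fun (ψ : AddChar A ℂ) (s : S) => arcIdx (ψ s)) x
          = (fun (ψ : AddChar A ℂ) (s : S) => arcIdx (ψ s)) y := by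
    apply Finset.exists_ne_map_eq_of_card_lt_of_maps_to
      (t := Fintype.piFinset (fun _ : S => Finset.Icc 1 19))
    · rw [Fintype.card_piFinset]
      simp only [Nat.card_Icc, Finset.prod_const, Finset.card_univ, Fintype.card_coe, hScard]
      rw [hcardA]
      simpa using hcard
    · intro ψ _
      rw [Finset.mem_coe, Fintype.mem_piFinset]
      intro s
      exact arcIdx_mem _
  have hbox' : ∀ s ∈ S, arcIdx (ψ₁ s) = arcIdx (ψ₂ s) := fun s hs => congrFun hbox ⟨s, hs⟩
  -- the quotient character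
  set ψ : AddChar A ℂ := ψ₁ * ψ₂⁻¹ with hψ
  have hψne : ψ ≠ 1 := by
    intro h
    apply hne
    rw [hψ] at h
    exact mul_inv_eq_one.mp h
  have hψapp : ∀ x, ψ x = ψ₁ x * (starRingEnd ℂ) (ψ₂ x) := by
    intro x
    rw [hψ, AddChar.mul_apply, AddChar.inv_apply, AddChar.map_neg_eq_conj]
  have hre : ∀ s ∈ S, (0.9453 : ℝ) < (ψ s).re := by
    intro s hs
    have := re_mul_conj_gt (AddChar.norm_apply ψ₁ s) (AddChar.norm_apply ψ₂ s) (hbox' s hs)
    rw [hψapp]
    simpa [Complex.mul_re] using this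
  have him : ∑ s ∈ S, (ψ s).im = 0 := by
    have h1 : ∑ s ∈ S, (ψ s).im = ∑ s ∈ S, (ψ (-s)).im := by
      apply Finset.sum_nbij' (fun s => -s) (fun s => -s)
      · intro s hs; exact hSneg s hs
      · intro s hs; exact hSneg s hs
      · intro s _; simp
      · intro s _; simp
      · intro s _; simp
    have h2 : ∑ s ∈ S, (ψ (-s)).im = - ∑ s ∈ S, (ψ s).im := by
      rw [← Finset.sum_neg_distrib]
      apply Finset.sum_congr rfl
      intro s _
      rw [AddChar.map_neg_eq_conj]; simp
    linarith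
  refine ⟨∑ s ∈ S, (ψ s).re, fun v => (ψ (e.symm v)).re, ?_, ?_, ?_, ?_⟩
  · intro h
    have := congrFun h (e 0)
    simp at this
  · have h1 : ∑ v, (ψ (e.symm v)).re = ∑ a, (ψ a).re := Equiv.sum_comp e.symm (fun a => (ψ a).re)
    rw [h1, ← Complex.re_sum, AddChar.sum_eq_zero_of_ne_one hψne]
    simp
  · ext v
    obtain ⟨x, rfl⟩ := e.surjective v
    rw [SimpleGraph.adjMatrix_mulVec_apply, hnbr x, Finset.sum_map]
    simp only [Function.Embedding.trans_apply, addLeftEmbedding_apply, Equiv.coe_toEmbedding,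
      Equiv.symm_apply_apply, Pi.smul_apply, smul_eq_mul, AddChar.map_add_eq_mul, Complex.mul_re]
    rw [Finset.sum_sub_distrib, ← Finset.mul_sum, ← Finset.mul_sum, him]
    ring
  · have h1 : (0.9453 : ℝ) * d ≤ ∑ s ∈ S, (ψ s).re := by
      have : ∑ s ∈ S, (0.9453 : ℝ) ≤ ∑ s ∈ S, (ψ s).re :=
        Finset.sum_le_sum (fun s hs => (hre s hs).le)
      rw [Finset.sum_const, hScard, nsmul_eq_mul] at this
      linarith
    exact lt_of_lt_of_le (two_sqrt_lt d hd) h1

/-- A vertex-transitive graph on a prime number `p` of vertices is a circulant: there is a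
bijection `ZMod p ≃ V` for which adjacency is translation invariant. -/
theorem exists_zmod_equiv_of_vertexTransitive {V : Type*} [Fintype V] (G : SimpleGraph V)
    (p : ℕ) [hp : Fact p.Prime] (hcard : Fintype.card V = p)
    (htrans : ∀ u v : V, ∃ φ : G ≃g G, φ u = v) :
    ∃ e : ZMod p ≃ V, ∀ a b c : ZMod p, G.Adj (e (a + c)) (e (b + c)) ↔ G.Adj (e a) (e b) := by
  classical
  have : Finite (G ≃g G) := Finite.of_injective (fun φ : G ≃g G => (φ : V → V))
    DFunLike.coe_injective
  have : MulAction.IsPretransitive (G ≃g G) V := ⟨fun u v => by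
    obtain ⟨φ, hφ⟩ := htrans u v
    exact ⟨φ, by rw [RelIso.smul_def]; exact hφ⟩⟩
  have : Nonempty V := by
    rw [← Fintype.card_pos_iff, hcard]; exact hp.out.pos
  obtain ⟨w⟩ := ‹Nonempty V›
  have hdvd : p ∣ Nat.card (G ≃g G) := by
    have h1 := MulAction.index_stabilizer_of_transitive (G ≃g G) w
    have h2 := Subgroup.index_dvd_card (MulAction.stabilizer (G ≃g G) w)
    rw [h1, Nat.card_eq_fintype_card, hcard] at h2
    exact h2
  obtain ⟨σ, hσ⟩ := exists_prime_orderOf_dvd_card' p hdvd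
  have hσ1 : σ ≠ 1 := by
    intro h
    rw [h, orderOf_one] at hσ
    exact hp.out.one_lt.ne hσ
  obtain ⟨v₀, hv₀⟩ : ∃ v₀, σ v₀ ≠ v₀ := by
    by_contra hcon
    push Not at hcon
    apply hσ1
    ext v
    simpa using hcon v
  set e₀ : ZMod p → V := fun k => (σ ^ k.val) v₀ with he₀
  have hadd : ∀ a c : ZMod p, e₀ (a + c) = (σ ^ c.val) (e₀ a) := by
    intro a c
    simp only [he₀]
    have hmod : σ ^ ((a.val + c.val) % p) = σ ^ (a.val + c.val) := by
      have := pow_mod_orderOf σ (a.val + c.val)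
      rwa [hσ] at this
    rw [← RelIso.mul_apply, ← pow_add, ZMod.val_add, hmod, add_comm]
  have h0 : e₀ 0 = v₀ := by simp [he₀]
  have h1 : e₀ 1 = σ v₀ := by
    simp only [he₀]
    rw [ZMod.val_one, pow_one]
  have hfix : ∀ k : ZMod p, e₀ k = v₀ → ∀ m : ℕ, e₀ (m • k) = v₀ := by
    intro k hk m
    induction m with
    | zero => simpa using h0
    | succ m ih =>
      rw [succ_nsmul, hadd, ih]
      exact hk
  have hker : ∀ k : ZMod p, e₀ k = v₀ → k = 0 := by
    intro k hk
    by_contra hk0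
    have := hfix k hk (k⁻¹).val
    rw [nsmul_eq_mul, ZMod.natCast_val, ZMod.cast_id', id, inv_mul_cancel₀ hk0, h1] at this
    exact hv₀ this
  have hinj : Function.Injective e₀ := by
    intro a b hab
    have h2 : e₀ (a + -a) = e₀ (b + -a) := by rw [hadd, hadd, hab]
    rw [add_neg_cancel, h0] at h2
    have := hker _ h2.symm
    exact (sub_eq_zero.mp (by rwa [sub_eq_add_neg])).symm
  have hbij : Function.Bijective e₀ := by
    rw [Fintype.bijective_iff_injective_and_card]
    exact ⟨hinj, by rw [ZMod.card, hcard]⟩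
  refine ⟨Equiv.ofBijective e₀ hbij, ?_⟩
  intro a b c
  simp only [Equiv.ofBijective_apply]
  rw [hadd, hadd]
  exact (σ ^ c.val).map_rel_iff


end Vale.Agent.P049
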